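import Vale.Agent.Results.P038.AdditiveBound

/-!
# Seymour's second neighbourhood conjecture: an additive bound, in plain terms

An oriented graph on the finite vertex type `V` is given by its arc relation `r` (`r u w` means
there is an arc from `u` to `w`), with no pair of opposite arcs.  For a vertex `v`,
* the out-neighbourhood is `{u | r v u}`;
* the second out-neighbourhood is `{w | w ≠ v ∧ ¬ r v w ∧ ∃ u, r v u ∧ r u w}`.

If every out-degree is at least `d`, then some vertex `v` satisfies
`|N₁⁺(v)| + (2 d + 2) ≤ |N₂⁺(v)| + max (n, 2 d + 2)`, where `n` is the number of vertices; in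
particular, if `n ≤ 2 d + 2` then some vertex has `|N₁⁺(v)| ≤ |N₂⁺(v)|`.

This is the statement of the hand-in `AdditiveBound`, written without any definition of our own.
-/

namespace Vale.Agent.Results.P038.AdditiveBoundPlain

theorem result {V : Type*} [Fintype V] [DecidableEq V] [Nonempty V]
    (r : V → V → Prop) [DecidableRel r]
    (hor : ∀ u w, r u w → ¬ r w u) (d : ℕ)
    (hdeg : ∀ u, d ≤ (Finset.univ.filter (fun w => r u w)).card) :
    (∃ v, (Finset.univ.filter (fun u => r v u)).card + (2 * d + 2) ≤
      (Finset.univ.filter (fun w => w ≠ v ∧ ¬ r v w ∧ ∃ u, r v u ∧ r u w)).card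
        + max (Fintype.card V) (2 * d + 2)) ∧
    (Fintype.card V ≤ 2 * d + 2 →
      ∃ v, (Finset.univ.filter (fun u => r v u)).card ≤
        (Finset.univ.filter (fun w => w ≠ v ∧ ¬ r v w ∧ ∃ u, r v u ∧ r u w)).card) := by
  have h := Vale.Agent.Results.P038.AdditiveBound.result r hor d hdeg
  refine ⟨h, fun hn => ?_⟩
  obtain ⟨v, hv⟩ := h
  refine ⟨v, ?_⟩
  rw [max_eq_right hn] at hv
  exact Nat.le_of_add_le_add_right hv

end Vale.Agent.Results.P038.AdditiveBoundPlain
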