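import Mathlib

namespace Vale.Agent.Results.P038.DenseCase

open Finset

variable {V : Type*} [Fintype V] [DecidableEq V]

/-- The out-neighbourhood `N_1^+(v)` of `v` in the digraph with arc relation `r`. -/
def outN (r : V → V → Prop) [DecidableRel r] (v : V) : Finset V :=
  univ.filter (fun u => r v u)

/-- The second out-neighbourhood `N_2^+(v)`: vertices `w` other than `v`, not out-neighbours
of `v`, that are reached by a directed path `v → u → w`. -/
def outN2 (r : V → V → Prop) [DecidableRel r] (v : V) : Finset V :=
  univ.filter (fun w => w ≠ v ∧ ¬ r v w ∧ ∃ u, r v u ∧ r u w)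

/-- Vertices outside the closed out-neighbourhood of `v` that are not dominated by it. -/
def undom (r : V → V → Prop) [DecidableRel r] (v : V) : Finset V :=
  univ.filter (fun x => x ≠ v ∧ ¬ r v x ∧ ∀ w, r v w → ¬ r w x)

/-- Vertices other than `x` that are not in-neighbours of `x`. -/
def nonIn (r : V → V → Prop) [DecidableRel r] (x : V) : Finset V :=
  univ.filter (fun y => y ≠ x ∧ ¬ r y x)

/-- In-degree. -/
def din (r : V → V → Prop) [DecidableRel r] (x : V) : ℕ :=
  (univ.filter (fun y => r y x)).card

omit [Fintype V] in
theorem arcs_le (r : V → V → Prop) [DecidableRel r] (hor : ∀ u w, r u w → ¬ r w u)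
    (T : Finset V) :
    2 * ∑ v ∈ T, (T.filter (fun x => r v x)).card + T.card ≤ T.card * T.card := by
  have hcomm : ∑ v ∈ T, (T.filter (fun x => r v x)).card =
      ∑ v ∈ T, (T.filter (fun x => r x v)).card := by
    simp only [card_filter]
    exact Finset.sum_comm
  have h1 : ∀ v ∈ T,
      (T.filter (fun x => r v x)).card + (T.filter (fun x => r x v)).card + 1 ≤ T.card := by
    intro v hv
    have hd : Disjoint (T.filter (fun x => r v x)) (T.filter (fun x => r x v)) := by
      rw [Finset.disjoint_left]
      intro x hx1 hx2
      exact hor _ _ (mem_filter.1 hx1).2 (mem_filter.1 hx2).2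
    have hsub : (T.filter (fun x => r v x)) ∪ (T.filter (fun x => r x v)) ⊆ T.erase v := by
      intro x hx
      rcases mem_union.1 hx with h | h
      · refine mem_erase.2 ⟨?_, (mem_filter.1 h).1⟩
        rintro rfl
        exact hor _ _ (mem_filter.1 h).2 (mem_filter.1 h).2
      · refine mem_erase.2 ⟨?_, (mem_filter.1 h).1⟩
        rintro rfl
        exact hor _ _ (mem_filter.1 h).2 (mem_filter.1 h).2
    have hc := card_le_card hsub
    rw [card_union_of_disjoint hd, card_erase_of_mem hv] at hc
    have hpos : 0 < T.card := card_pos.2 ⟨v, hv⟩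
    omega
  have h2 := sum_le_sum h1
  rw [sum_add_distrib, sum_add_distrib, ← hcomm, sum_const, sum_const, smul_eq_mul,
    smul_eq_mul] at h2
  omega

theorem main [Nonempty V] (r : V → V → Prop) [DecidableRel r]
    (hor : ∀ u w, r u w → ¬ r w u) (d : ℕ)
    (hdeg : ∀ u, d ≤ (outN r u).card)
    (hn : Fintype.card V ≤ 2 * d + 2) :
    ∃ v, (∀ u, (outN r v).card ≤ (outN r u).card) ∧ (outN r v).card ≤ (outN2 r v).card := by
  classical
  obtain ⟨v0, -, hv0⟩ := exists_min_image univ (fun u => (outN r u).card) univ_nonempty
  set δ := (outN r v0).card with hδ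
  have hmin : ∀ u, δ ≤ (outN r u).card := fun u => hv0 u (mem_univ u)
  have hdδ : d ≤ δ := hdeg v0
  obtain ⟨n, hnV⟩ : ∃ n, Fintype.card V = n := ⟨_, rfl⟩
  have hcu : (univ : Finset V).card = n := by rw [card_univ, hnV]
  rw [hnV] at hn
  have hn' : n ≤ 2 * δ + 2 := by omega
  by_contra hcon
  set S := univ.filter (fun v => (outN r v).card = δ) with hS
  have hv0S : v0 ∈ S := by simp [hS, hδ]
  have hbad : ∀ v ∈ S, (outN2 r v).card < δ := by
    intro v hv
    have hvd : (outN r v).card = δ := (mem_filter.1 hv).2
    by_contra hge
    exact hcon ⟨v, fun u => by rw [hvd]; exact hmin u, by omega⟩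
  have hself : ∀ v, v ∉ outN r v := by
    intro v hv
    have : r v v := by simpa [outN] using hv
    exact hor _ _ this this
  -- the vertex set splits as N[v], N2(v), undominated vertices
  have hpart : ∀ v, (outN r v).card + 1 + (outN2 r v).card + (undom r v).card = n := by
    intro v
    have h1 : (univ : Finset V) = insert v (outN r v) ∪ (outN2 r v ∪ undom r v) := by
      ext x
      simp only [mem_univ, mem_union, mem_insert, outN, outN2, undom, mem_filter, true_and,
        true_iff]
      by_cases hx : x = v
      · exact Or.inl (Or.inl hx)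
      · by_cases hvx : r v x
        · exact Or.inl (Or.inr hvx)
        · by_cases hex : ∃ u, r v u ∧ r u x
          · exact Or.inr (Or.inl ⟨hx, hvx, hex⟩)
          · refine Or.inr (Or.inr ⟨hx, hvx, ?_⟩)
            intro w hw hwx
            exact hex ⟨w, hw, hwx⟩
    have hd1 : Disjoint (insert v (outN r v)) (outN2 r v ∪ undom r v) := by
      rw [Finset.disjoint_left]
      intro x hx hx'
      simp only [mem_union, mem_insert, outN, outN2, undom, mem_filter, mem_univ,
        true_and] at hx hx'
      rcases hx with rfl | hx
      · rcases hx' with h | h <;> exact h.1 rfl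
      · rcases hx' with h | h <;> exact h.2.1 hx
    have hd2 : Disjoint (outN2 r v) (undom r v) := by
      rw [Finset.disjoint_left]
      intro x hx hx'
      simp only [outN2, undom, mem_filter, mem_univ, true_and] at hx hx'
      obtain ⟨w, hw, hwx⟩ := hx.2.2
      exact hx'.2.2 w hw hwx
    have hcu' := hcu
    rw [h1, card_union_of_disjoint hd1, card_union_of_disjoint hd2,
      card_insert_of_notMem (hself v)] at hcu'
    omega
  have hQ : ∀ x, (nonIn r x).card + din r x + 1 = n := by
    intro x
    have h1 : (univ : Finset V) = insert x (univ.filter (fun y => r y x)) ∪ nonIn r x := by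
      ext y
      simp only [mem_univ, mem_union, mem_insert, nonIn, mem_filter, true_and, true_iff]
      by_cases hy : y = x
      · exact Or.inl (Or.inl hy)
      · by_cases hyx : r y x
        · exact Or.inl (Or.inr hyx)
        · exact Or.inr ⟨hy, hyx⟩
    have hd1 : Disjoint (insert x (univ.filter (fun y => r y x))) (nonIn r x) := by
      rw [Finset.disjoint_left]
      intro y hy hy'
      simp only [mem_insert, nonIn, mem_filter, mem_univ, true_and] at hy hy'
      rcases hy with rfl | hy
      · exact hy'.1 rfl
      · exact hy'.2 hy
    have hx : x ∉ univ.filter (fun y => r y x) := by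
      intro h
      have : r x x := by simpa using h
      exact hor _ _ this this
    have hcu' := hcu
    rw [h1, card_union_of_disjoint hd1, card_insert_of_notMem hx] at hcu'
    simp only [din]
    omega
  have hA : ∑ x, (outN r x).card = ∑ x, din r x := by
    simp only [outN, din, card_filter]
    exact Finset.sum_comm
  have harcs := arcs_le r hor (univ : Finset V)
  have hio : ∀ x, (outN r x).card + din r x + 1 ≤ n := by
    intro x
    have hd : Disjoint (outN r x) (univ.filter (fun y => r y x)) := by
      rw [Finset.disjoint_left]
      intro y hy1 hy2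
      simp only [outN, mem_filter, mem_univ, true_and] at hy1 hy2
      exact hor _ _ hy1 hy2
    have hsub : outN r x ∪ univ.filter (fun y => r y x) ⊆ univ.erase x := by
      intro y hy
      refine mem_erase.2 ⟨?_, mem_univ _⟩
      rintro rfl
      rcases mem_union.1 hy with h | h
      · exact hself _ h
      · have : r y y := by simpa using h
        exact hor _ _ this this
    have hc := card_le_card hsub
    rw [card_union_of_disjoint hd, card_erase_of_mem (mem_univ x), hcu] at hc
    have hpos : 0 < n := by rw [← hnV]; exact Fintype.card_pos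
    simp only [din]
    omega
  -- key bound
  have hK : ∀ x, (S.filter (fun v => x ∈ undom r v)).Nonempty →
      (S.filter (fun v => x ∈ undom r v)).card + 2 * δ + 1 ≤ 2 * (nonIn r x).card := by
    intro x hne
    set T := S.filter (fun v => x ∈ undom r v) with hT
    have hTQ : ∀ v ∈ T, insert v (outN r v) ⊆ nonIn r x := by
      intro v hv y hy
      have hxU : x ∈ undom r v := (mem_filter.1 hv).2
      simp only [undom, mem_filter, mem_univ, true_and] at hxU
      simp only [nonIn, mem_filter, mem_univ, true_and]
      rcases mem_insert.1 hy with rfl | hy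
      · exact ⟨fun h => hxU.1 h.symm, hxU.2.1⟩
      · have hvy : r v y := by simpa [outN] using hy
        refine ⟨?_, hxU.2.2 y hvy⟩
        rintro rfl
        exact hxU.2.1 hvy
    have hTsub : T ⊆ nonIn r x := fun v hv => hTQ v hv (mem_insert_self _ _)
    have hone : ∀ v ∈ T,
        T.card + δ ≤ (nonIn r x).card + (T.filter (fun y => r v y)).card := by
      intro v hv
      have hvd : (outN r v).card = δ := (mem_filter.1 (mem_filter.1 hv).1).2
      have hsub : T \ insert v (T.filter (fun y => r v y)) ⊆
          nonIn r x \ insert v (outN r v) := by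
        intro y hy
        rw [mem_sdiff] at hy ⊢
        refine ⟨hTsub hy.1, ?_⟩
        intro h
        apply hy.2
        rcases mem_insert.1 h with rfl | h
        · exact mem_insert_self _ _
        · exact mem_insert_of_mem (mem_filter.2 ⟨hy.1, by simpa [outN] using h⟩)
      have hc := card_le_card hsub
      have hvn' : v ∉ T.filter (fun y => r v y) := by
        intro h
        exact hor _ _ (mem_filter.1 h).2 (mem_filter.1 h).2
      have hsub2 : insert v (T.filter (fun y => r v y)) ⊆ T := by
        intro y hy
        rcases mem_insert.1 hy with rfl | hy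
        · exact hv
        · exact (mem_filter.1 hy).1
      rw [card_sdiff_of_subset (hTQ v hv), card_sdiff_of_subset hsub2,
        card_insert_of_notMem (hself v), card_insert_of_notMem hvn'] at hc
      have h3 : (insert v (outN r v)).card ≤ (nonIn r x).card := card_le_card (hTQ v hv)
      rw [card_insert_of_notMem (hself v), hvd] at h3
      have h4 := card_le_card hsub2
      rw [card_insert_of_notMem hvn'] at h4
      omega
    have hsum := sum_le_sum hone
    rw [sum_const, smul_eq_mul, sum_add_distrib, sum_const, smul_eq_mul] at hsum
    have harc := arcs_le r hor T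
    have hpos : 0 < T.card := card_pos.2 hne
    have : T.card * (T.card + 2 * δ + 1) ≤ T.card * (2 * (nonIn r x).card) := by nlinarith
    exact Nat.le_of_mul_le_mul_left this hpos
  -- double counting
  have hdc : ∑ v ∈ S, (undom r v).card = ∑ x, (S.filter (fun v => x ∈ undom r v)).card := by
    have h1 : ∀ v, (undom r v).card = ∑ x, if x ∈ undom r v then 1 else 0 := by
      intro v
      rw [← card_filter]
      congr 1
      ext x
      simp
    simp only [h1, card_filter]
    exact Finset.sum_comm
  set W := univ.filter (fun x => (S.filter (fun v => x ∈ undom r v)).Nonempty) with hW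
  have hper : ∀ x, (S.filter (fun v => x ∈ undom r v)).card + 2 * δ +
      (if x ∈ W then 1 else 0) ≤ 2 * (nonIn r x).card := by
    intro x
    by_cases hx : (S.filter (fun v => x ∈ undom r v)).Nonempty
    · have : x ∈ W := by simp [hW, hx]
      rw [if_pos this]
      exact hK x hx
    · have hxW : x ∉ W := by simp [hW, hx]
      rw [if_neg hxW, not_nonempty_iff_eq_empty.1 hx]
      have h1 := hQ x
      have h2 := hio x
      have h3 := hmin x
      simp only [card_empty]
      omega
  have hsumper := sum_le_sum (fun x (_ : x ∈ (univ : Finset V)) => hper x)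
  rw [sum_add_distrib, sum_add_distrib, ← hdc, sum_const, smul_eq_mul, hcu,
    ← mul_sum, sum_boole] at hsumper
  have hsumQ : ∑ x, (nonIn r x).card + ∑ x, din r x + n = n * n := by
    have := Finset.sum_congr rfl (fun x (_ : x ∈ (univ : Finset V)) => hQ x)
    rw [sum_add_distrib, sum_add_distrib, sum_const, sum_const, smul_eq_mul, smul_eq_mul,
      hcu] at this
    omega
  have hsumU : n * S.card ≤ ∑ v ∈ S, (undom r v).card + 2 * δ * S.card := by
    have h1 : ∀ v ∈ S, n ≤ (undom r v).card + 2 * δ := by
      intro v hv
      have hvd : (outN r v).card = δ := (mem_filter.1 hv).2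
      have h2 := hpart v
      have h3 := hbad v hv
      omega
    have h2 := sum_le_sum h1
    rw [sum_const, smul_eq_mul, sum_add_distrib, sum_const, smul_eq_mul] at h2
    linarith [mul_comm n S.card, mul_comm (2 * δ) S.card]
  have hsumS : n * (δ + 1) ≤ ∑ x, (outN r x).card + S.card := by
    have h1 : ∀ x ∈ (univ : Finset V), δ + 1 ≤ (outN r x).card + (if x ∈ S then 1 else 0) := by
      intro x _
      by_cases hx : x ∈ S
      · rw [if_pos hx]
        have := hmin x
        omega
      · rw [if_neg hx]
        have h2 := hmin x
        have h3 : (outN r x).card ≠ δ := fun h => hx (by simp [hS, h])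
        omega
    have h2 := sum_le_sum h1
    rw [sum_const, smul_eq_mul, hcu, sum_add_distrib, sum_boole] at h2
    simpa using h2
  have hAge : n * δ ≤ ∑ x, (outN r x).card := by
    have h2 := sum_le_sum (fun x (_ : x ∈ (univ : Finset V)) => hmin x)
    rw [sum_const, smul_eq_mul, hcu] at h2
    exact h2
  have hnpos : 0 < n := by rw [← hnV]; exact Fintype.card_pos
  have hSpos : 0 < S.card := card_pos.2 ⟨v0, hv0S⟩
  -- n is at least 2δ+1
  have hn1 : 2 * δ + 1 ≤ n := by
    have h5 : ∑ v, ((univ : Finset V).filter (fun x => r v x)).card = ∑ x, (outN r x).card := rfl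
    rw [h5, hcu] at harcs
    have : n * (2 * δ + 1) ≤ n * n := by nlinarith
    exact Nat.le_of_mul_le_mul_left this hnpos
  have hWcard : (W.card : ℕ) = (univ.filter (fun x => x ∈ W)).card := by
    congr 1
    ext x
    simp
  set A := ∑ x, (outN r x).card with hAdef
  set u := ∑ v ∈ S, (undom r v).card with hu
  rw [← hA] at hsumQ
  have hu0 : u = 0 := by
    rcases Nat.lt_or_ge n (2 * δ + 2) with h | h
    · have hn2 : n = 2 * δ + 1 := by omega
      rw [hn2] at hsumper hsumQ hAge
      nlinarith
    · have hn2 : n = 2 * δ + 2 := by omega
      have hw0 : (univ.filter (fun x => x ∈ W)).card = 0 := by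
        rw [hn2] at hsumper hsumQ hsumS hsumU
        nlinarith
      have hWe : W = ∅ := by
        rw [← hWcard] at hw0
        exact card_eq_zero.1 hw0
      refine hdc.trans (sum_eq_zero (fun x _ => ?_))
      rw [card_eq_zero]
      by_contra hx
      have : x ∈ W := by
        simp only [hW, mem_filter, mem_univ, true_and]
        exact nonempty_iff_ne_empty.2 hx
      rw [hWe] at this
      exact absurd this (notMem_empty x)
  rw [hu0] at hsumU
  have : n * S.card ≤ 2 * δ * S.card := by simpa using hsumU
  have h6 : n ≤ 2 * δ := Nat.le_of_mul_le_mul_right this hSpos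
  omega

/-- Every nonempty finite oriented graph on at most `2 δ + 2` vertices in which every out-degree
is at least `δ` has a vertex (indeed one of minimum out-degree) whose second out-neighbourhood
is at least as large as its out-neighbourhood. -/
theorem result [Nonempty V] (r : V → V → Prop) [DecidableRel r]
    (hor : ∀ u w, r u w → ¬ r w u) (d : ℕ)
    (hdeg : ∀ u, d ≤ (outN r u).card)
    (hn : Fintype.card V ≤ 2 * d + 2) :
    ∃ v, (∀ u, (outN r v).card ≤ (outN r u).card) ∧ (outN r v).card ≤ (outN2 r v).card :=
  main r hor d hdeg hn

end Vale.Agent.Results.P038.DenseCase
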