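import Mathlib

namespace Vale.Agent.Results.P038.SparseTriangles

open Finset

variable {V : Type*} [Fintype V] [DecidableEq V]

/-- The out-neighbourhood `N_1^+(v)` of `v` in the digraph with arc relation `r`. -/
def outN (r : V → V → Prop) [DecidableRel r] (v : V) : Finset V :=
  univ.filter (fun u => r v u)

/-- The second out-neighbourhood `N_2^+(v)`: vertices `w` other than `v`, not out-neighbours
of `v`, that are reached by a directed path `v → u → w`. -/
def outN2 (r : V → V → Prop) [DecidableRel r] (v : V) : Finset V :=
  univ.filter (fun w => w ≠ v ∧ ¬ r v w ∧ ∃ u, r v u ∧ r u w)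

/-- The common neighbours of `u` and `w` in the underlying undirected graph; when `u` and `w`
are adjacent these are exactly the triangles of the underlying graph through the edge `uw`. -/
def commonNbrs (r : V → V → Prop) [DecidableRel r] (u w : V) : Finset V :=
  univ.filter (fun z => (r u z ∨ r z u) ∧ (r w z ∨ r z w))

theorem minDegree_vertex (r : V → V → Prop) [DecidableRel r]
    (hor : ∀ u w, r u w → ¬ r w u) (t : ℕ)
    (htri : ∀ u w, r u w → (commonNbrs r u w).card ≤ t)
    (v : V) (hdeg : 2 * t ≤ (outN r v).card + 1)
    (hv : ∀ u, (outN r v).card ≤ (outN r u).card) :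
    (outN r v).card ≤ (outN2 r v).card := by
  classical
  by_contra hcon
  rw [not_le] at hcon
  set A := outN r v with hA
  set B := outN2 r v with hB
  have memA : ∀ x, x ∈ A ↔ r v x := by
    intro x; simp [hA, outN]
  have hvB : v ∉ B := by
    simp [hB, outN2]
  have hdisj : Disjoint A B := by
    rw [Finset.disjoint_left]
    intro x hxA hxB
    simp only [hB, outN2, mem_filter, mem_univ, true_and] at hxB
    exact hxB.2.1 ((memA x).1 hxA)
  -- out-neighbourhoods of vertices of A lie in A ∪ B
  have hsub : ∀ w ∈ A, ∀ x, r w x → x ∈ A ∨ x ∈ B := by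
    intro w hw x hx
    have hvw : r v w := (memA w).1 hw
    by_cases hvx : r v x
    · exact Or.inl ((memA x).2 hvx)
    · refine Or.inr ?_
      simp only [hB, outN2, mem_filter, mem_univ, true_and]
      refine ⟨?_, hvx, w, hvw, hx⟩
      rintro rfl
      exact hor _ _ hvw hx
  have hsplit : ∀ w ∈ A, (outN r w).card =
      (A.filter (fun x => r w x)).card + (B.filter (fun x => r w x)).card := by
    intro w hw
    have h1 : outN r w = (A.filter (fun x => r w x)) ∪ (B.filter (fun x => r w x)) := by
      ext x
      simp only [outN, mem_filter, mem_univ, true_and, mem_union]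
      constructor
      · intro hx
        rcases hsub w hw x hx with h | h
        · exact Or.inl ⟨h, hx⟩
        · exact Or.inr ⟨h, hx⟩
      · rintro (h | h) <;> exact h.2
    rw [h1, card_union_of_disjoint]
    exact disjoint_filter_filter hdisj
  -- (1) out- plus in-degree inside A is at most t
  have h1 : ∀ w ∈ A, (A.filter (fun x => r w x)).card + (A.filter (fun x => r x w)).card ≤ t := by
    intro w hw
    have hvw : r v w := (memA w).1 hw
    have hd : Disjoint (A.filter (fun x => r w x)) (A.filter (fun x => r x w)) := by
      rw [Finset.disjoint_left]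
      intro x hx1 hx2
      exact hor _ _ (mem_filter.1 hx1).2 (mem_filter.1 hx2).2
    rw [← card_union_of_disjoint hd]
    refine le_trans (card_le_card ?_) (htri v w hvw)
    intro x hx
    simp only [commonNbrs, mem_filter, mem_univ, true_and]
    rcases mem_union.1 hx with h | h
    · exact ⟨Or.inl ((memA x).1 (mem_filter.1 h).1), Or.inl (mem_filter.1 h).2⟩
    · exact ⟨Or.inl ((memA x).1 (mem_filter.1 h).1), Or.inr (mem_filter.1 h).2⟩
  -- (2) for every arc inside A
  have h2 : ∀ w ∈ A, ∀ w' ∈ A, r w w' →
      A.card + 2 ≤ t + (A.filter (fun x => r w x)).card + (A.filter (fun x => r w' x)).card := by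
    intro w hw w' hw' hww'
    have e1 := hsplit w hw
    have e2 := hsplit w' hw'
    have d1 := hv w
    have d2 := hv w'
    have hun : ((B.filter (fun x => r w x)) ∪ (B.filter (fun x => r w' x))).card ≤ B.card :=
      card_le_card (union_subset (filter_subset _ _) (filter_subset _ _))
    have hin : ((B.filter (fun x => r w x)) ∩ (B.filter (fun x => r w' x))).card + 1 ≤ t := by
      have hvn : v ∉ (B.filter (fun x => r w x)) ∩ (B.filter (fun x => r w' x)) := by
        intro h
        exact hvB (mem_filter.1 (mem_inter.1 h).1).1
      rw [← card_insert_of_notMem hvn]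
      refine le_trans (card_le_card ?_) (htri w w' hww')
      intro x hx
      simp only [commonNbrs, mem_filter, mem_univ, true_and]
      rcases mem_insert.1 hx with rfl | h
      · exact ⟨Or.inr ((memA w).1 hw), Or.inr ((memA w').1 hw')⟩
      · exact ⟨Or.inl (mem_filter.1 (mem_inter.1 h).1).2, Or.inl (mem_filter.1 (mem_inter.1 h).2).2⟩
    have hui := card_union_add_card_inter (B.filter (fun x => r w x)) (B.filter (fun x => r w' x))
    omega
  -- A is nonempty and every vertex of A has an out-neighbour in A
  have h3 : ∀ w ∈ A, 1 ≤ (A.filter (fun x => r w x)).card := by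
    intro w hw
    have e1 := hsplit w hw
    have d1 := hv w
    have : (B.filter (fun x => r w x)).card ≤ B.card := card_le_card (filter_subset _ _)
    omega
  have hApos : 0 < A.card := by omega
  obtain ⟨w0, hw0⟩ := card_pos.1 hApos
  -- double counting over the arcs inside A
  have hsum : ∑ w ∈ A, ∑ w' ∈ A.filter (fun x => r w x), (A.card + 2) ≤
      ∑ w ∈ A, ∑ w' ∈ A.filter (fun x => r w x),
        (t + (A.filter (fun x => r w x)).card + (A.filter (fun x => r w' x)).card) := by
    refine sum_le_sum (fun w hw => sum_le_sum (fun w' hw' => ?_))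
    exact h2 w hw w' (mem_filter.1 hw').1 (mem_filter.1 hw').2
  have hcomm : ∑ w ∈ A, ∑ w' ∈ A.filter (fun x => r w x), (A.filter (fun x => r w' x)).card =
      ∑ w' ∈ A, ∑ w ∈ A.filter (fun x => r x w'), (A.filter (fun x => r w' x)).card := by
    refine Finset.sum_comm' ?_
    intro x y
    simp only [mem_filter]
    tauto
  have hL : ∑ w ∈ A, ∑ w' ∈ A.filter (fun x => r w x), (A.card + 2) =
      (∑ w ∈ A, (A.filter (fun x => r w x)).card) * (A.card + 2) := by
    rw [sum_mul]
    refine sum_congr rfl (fun w _ => ?_)
    rw [sum_const, smul_eq_mul]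
  have hR : ∑ w ∈ A, ∑ w' ∈ A.filter (fun x => r w x),
        (t + (A.filter (fun x => r w x)).card + (A.filter (fun x => r w' x)).card) =
      (∑ w ∈ A, (A.filter (fun x => r w x)).card) * t +
      ∑ w ∈ A, (A.filter (fun x => r w x)).card *
        ((A.filter (fun x => r w x)).card + (A.filter (fun x => r x w)).card) := by
    have : ∀ w ∈ A, ∑ w' ∈ A.filter (fun x => r w x),
        (t + (A.filter (fun x => r w x)).card + (A.filter (fun x => r w' x)).card) =
        (A.filter (fun x => r w x)).card * t +
        (A.filter (fun x => r w x)).card * (A.filter (fun x => r w x)).card +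
        ∑ w' ∈ A.filter (fun x => r w x), (A.filter (fun x => r w' x)).card := by
      intro w _
      rw [sum_add_distrib, sum_const, smul_eq_mul]
      ring
    rw [sum_congr rfl this, sum_add_distrib, sum_add_distrib, hcomm, sum_mul]
    have h5 : ∀ w' ∈ A, ∑ w ∈ A.filter (fun x => r x w'), (A.filter (fun x => r w' x)).card =
        (A.filter (fun x => r w' x)).card * (A.filter (fun x => r x w')).card := by
      intro w' _
      rw [sum_const, smul_eq_mul, mul_comm]
    rw [sum_congr rfl h5, add_assoc, ← sum_add_distrib]
    congr 1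
    refine sum_congr rfl (fun w _ => ?_)
    ring
  have hR2 : ∑ w ∈ A, (A.filter (fun x => r w x)).card *
        ((A.filter (fun x => r w x)).card + (A.filter (fun x => r x w)).card) ≤
      (∑ w ∈ A, (A.filter (fun x => r w x)).card) * t := by
    rw [sum_mul]
    exact sum_le_sum (fun w hw => Nat.mul_le_mul_left _ (h1 w hw))
  have hm : 1 ≤ ∑ w ∈ A, (A.filter (fun x => r w x)).card :=
    le_trans (h3 w0 hw0) (single_le_sum (f := fun w => (A.filter (fun x => r w x)).card)
      (fun _ _ => Nat.zero_le _) hw0)
  rw [hL, hR] at hsum
  have hfin : (∑ w ∈ A, (A.filter (fun x => r w x)).card) * (A.card + 2) ≤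
      (∑ w ∈ A, (A.filter (fun x => r w x)).card) * (2 * t) := by
    calc _ ≤ _ := hsum
      _ ≤ (∑ w ∈ A, (A.filter (fun x => r w x)).card) * t +
          (∑ w ∈ A, (A.filter (fun x => r w x)).card) * t := Nat.add_le_add_left hR2 _
      _ = _ := by ring
  have := Nat.le_of_mul_le_mul_left hfin hm
  omega

/-- If every edge of the underlying graph of a nonempty finite oriented graph lies in at most `t`
triangles and every out-degree is at least `2t - 1`, then every vertex of minimum out-degree has
a second out-neighbourhood at least as large as its out-neighbourhood; in particular such a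
vertex exists. -/
theorem result [Nonempty V] (r : V → V → Prop) [DecidableRel r]
    (hor : ∀ u w, r u w → ¬ r w u) (t : ℕ)
    (htri : ∀ u w, r u w → (commonNbrs r u w).card ≤ t)
    (hdeg : ∀ u, 2 * t ≤ (outN r u).card + 1) :
    (∀ v, (∀ u, (outN r v).card ≤ (outN r u).card) → (outN r v).card ≤ (outN2 r v).card) ∧
    ∃ v, (outN r v).card ≤ (outN2 r v).card := by
  have hall : ∀ v, (∀ u, (outN r v).card ≤ (outN r u).card) →
      (outN r v).card ≤ (outN2 r v).card :=
    fun v hv => minDegree_vertex r hor t htri v (hdeg v) hv
  refine ⟨hall, ?_⟩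
  obtain ⟨v, _, hv⟩ := Finset.exists_min_image (univ : Finset V) (fun u => (outN r u).card)
    univ_nonempty
  exact ⟨v, hall v (fun u => hv u (mem_univ u))⟩

end Vale.Agent.Results.P038.SparseTriangles
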